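import Mathlib

namespace Vale.Agent.Results.P075.A_EndpointFailure

open MeasureTheory Set
open scoped ENNReal

/-- The truncated triangular Hilbert form: the integral over all `(a, b, c)` in `ℝ × ℝ × ℝ` with
`ε < |a + b + c| < R` of `G0 (a, b) * G1 (b, c) * G2 (c, a) / (a + b + c)`. -/
noncomputable def triForm (ε R : ℝ) (G0 G1 G2 : ℝ × ℝ → ℂ) : ℂ :=
  ∫ q : ℝ × ℝ × ℝ,
    if ε < |q.1 + q.2.1 + q.2.2| ∧ |q.1 + q.2.1 + q.2.2| < R then
      G0 (q.1, q.2.1) * G1 (q.2.1, q.2.2) * G2 (q.2.2, q.1) /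
        ((q.1 + q.2.1 + q.2.2 : ℝ) : ℂ)
    else 0

/-- the set carrying `G0` in the example -/
def setZero (R : ℝ) : Set (ℝ × ℝ) :=
  {x | x.1 ∈ Icc (-(R / 2)) 0 ∧ 0 < x.1 + x.2 ∧ x.1 + x.2 < R / 2}

lemma measurableSet_setZero (R : ℝ) : MeasurableSet (setZero R) := by
  unfold setZero
  refine MeasurableSet.inter ?_ (MeasurableSet.inter ?_ ?_)
  · exact measurableSet_Icc.preimage measurable_fst
  · exact measurableSet_lt measurable_const (measurable_fst.add measurable_snd)
  · exact measurableSet_lt (measurable_fst.add measurable_snd) measurable_const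

/-- the real integrand for the explicit example -/
noncomputable def bigF (ε R : ℝ) (q : ℝ × ℝ × ℝ) : ℝ :=
  if ε < |q.1 + q.2.1 + q.2.2| ∧ |q.1 + q.2.1 + q.2.2| < R then
    (setZero R).indicator (fun _ => (1 : ℝ)) (q.1, q.2.1) *
      (Icc (0 : ℝ) R ×ˢ Icc (0 : ℝ) ε).indicator (fun _ => (1 : ℝ)) (q.2.1, q.2.2) *
      (Icc (0 : ℝ) ε ×ˢ Icc (-R) 0).indicator (fun _ => (1 : ℝ)) (q.2.2, q.1) /
      (q.1 + q.2.1 + q.2.2)
  else 0

/-- the profile in the variable `s = a + b` -/
noncomputable def psi (ε R : ℝ) (s : ℝ) : ℝ :=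
  (Ioo ε (R / 2)).indicator (fun s => (s + ε)⁻¹) s

/-- the comparison function -/
noncomputable def smallG (ε R : ℝ) (q : ℝ × ℝ × ℝ) : ℝ :=
  (Icc (-(R / 2)) 0).indicator (fun _ => (1 : ℝ)) q.1 *
    (psi ε R (q.1 + q.2.1) * (Icc (0 : ℝ) ε).indicator (fun _ => (1 : ℝ)) q.2.2)

lemma measurable_psi (ε R : ℝ) : Measurable (psi ε R) := by
  unfold psi
  exact ((measurable_id.add_const ε).inv).indicator measurableSet_Ioo

lemma measurable_smallG (ε R : ℝ) : Measurable (smallG ε R) := by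
  unfold smallG
  refine Measurable.mul ?_ (Measurable.mul ?_ ?_)
  · exact (measurable_const.indicator measurableSet_Icc).comp measurable_fst
  · exact (measurable_psi ε R).comp (measurable_fst.add (measurable_fst.comp measurable_snd))
  · exact (measurable_const.indicator measurableSet_Icc).comp
      (measurable_snd.comp measurable_snd)

lemma measurable_bigF (ε R : ℝ) : Measurable (bigF ε R) := by
  unfold bigF
  have hs : Measurable (fun q : ℝ × ℝ × ℝ => q.1 + q.2.1 + q.2.2) :=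
    (measurable_fst.add (measurable_fst.comp measurable_snd)).add
      (measurable_snd.comp measurable_snd)
  refine Measurable.ite ?_ ?_ measurable_const
  · exact MeasurableSet.inter (measurableSet_lt measurable_const hs.abs)
      (measurableSet_lt hs.abs measurable_const)
  · refine Measurable.div (Measurable.mul (Measurable.mul ?_ ?_) ?_) hs
    · exact (measurable_const.indicator (measurableSet_setZero R)).comp
        (measurable_fst.prodMk (measurable_fst.comp measurable_snd))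
    · exact (measurable_const.indicator (measurableSet_Icc.prod measurableSet_Icc)).comp
        ((measurable_fst.comp measurable_snd).prodMk (measurable_snd.comp measurable_snd))
    · exact (measurable_const.indicator (measurableSet_Icc.prod measurableSet_Icc)).comp
        ((measurable_snd.comp measurable_snd).prodMk measurable_fst)

/-- the box containing the support of the example -/
def box (ε R : ℝ) : Set (ℝ × ℝ × ℝ) :=
  Icc (-(R / 2)) 0 ×ˢ (Icc (0 : ℝ) R ×ˢ Icc (0 : ℝ) ε)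

lemma bigF_nonneg (ε R : ℝ) (q : ℝ × ℝ × ℝ) : 0 ≤ bigF ε R q := by
  unfold bigF
  split_ifs with h
  · by_cases h0 : (q.1, q.2.1) ∈ setZero R
    · by_cases h1 : (q.2.1, q.2.2) ∈ Icc (0 : ℝ) R ×ˢ Icc (0 : ℝ) ε
      · have hs : 0 < q.1 + q.2.1 + q.2.2 := by
          have := h0.2.1
          have := h1.2.1
          simp only at *
          linarith
        apply div_nonneg _ hs.le
        apply mul_nonneg (mul_nonneg _ _) _ <;> exact indicator_nonneg (fun _ _ => zero_le_one) _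
      · rw [indicator_of_notMem h1]
        simp only [mul_zero, zero_mul, zero_div, le_refl]
    · rw [indicator_of_notMem h0]
      simp only [zero_mul, zero_div, le_refl]
  · exact le_rfl

lemma bigF_le (ε R : ℝ) (hε : 0 < ε) (q : ℝ × ℝ × ℝ) :
    bigF ε R q ≤ (box ε R).indicator (fun _ => ε⁻¹) q := by
  unfold bigF
  split_ifs with h
  · by_cases h0 : (q.1, q.2.1) ∈ setZero R
    · by_cases h1 : (q.2.1, q.2.2) ∈ Icc (0 : ℝ) R ×ˢ Icc (0 : ℝ) ε
      · have hq : q ∈ box ε R := by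
          refine ⟨h0.1, h1.1, h1.2⟩
        have hs : 0 < q.1 + q.2.1 + q.2.2 := by
          have := h0.2.1
          have := h1.2.1
          simp only at *
          linarith
        have hs2 : ε < q.1 + q.2.1 + q.2.2 := by
          have := h.1
          rwa [abs_of_pos hs] at this
        rw [indicator_of_mem hq, indicator_of_mem h0, indicator_of_mem h1]
        by_cases h2 : (q.2.2, q.1) ∈ Icc (0 : ℝ) ε ×ˢ Icc (-R) 0
        · rw [indicator_of_mem h2]
          rw [one_mul, one_mul, one_div]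
          exact inv_anti₀ hε hs2.le
        · rw [indicator_of_notMem h2]
          simp only [mul_zero, zero_div]
          positivity
      · rw [indicator_of_notMem h1]
        simp only [mul_zero, zero_mul, zero_div]
        exact indicator_nonneg (fun _ _ => by positivity) _
    · rw [indicator_of_notMem h0]
      simp only [zero_mul, zero_div]
      exact indicator_nonneg (fun _ _ => by positivity) _
  · exact indicator_nonneg (fun _ _ => by positivity) _

lemma smallG_nonneg (ε R : ℝ) (hε : 0 < ε) (q : ℝ × ℝ × ℝ) : 0 ≤ smallG ε R q := by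
  unfold smallG psi
  apply mul_nonneg (indicator_nonneg (fun _ _ => zero_le_one) _)
  apply mul_nonneg _ (indicator_nonneg (fun _ _ => zero_le_one) _)
  apply indicator_nonneg
  intro s hs
  have h1 := hs.1
  have h2 : 0 < s + ε := by linarith
  exact (inv_pos.mpr h2).le

lemma smallG_le_bigF (ε R : ℝ) (hε : 0 < ε) (hR : 4 * ε ≤ R) (q : ℝ × ℝ × ℝ) :
    smallG ε R q ≤ bigF ε R q := by
  by_cases ha : q.1 ∈ Icc (-(R / 2)) 0
  swap
  · have : smallG ε R q = 0 := by
      unfold smallG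
      rw [indicator_of_notMem ha, zero_mul]
    rw [this]
    exact bigF_nonneg ε R q
  by_cases hc : q.2.2 ∈ Icc (0 : ℝ) ε
  swap
  · have : smallG ε R q = 0 := by
      unfold smallG
      rw [indicator_of_notMem hc, mul_zero, mul_zero]
    rw [this]
    exact bigF_nonneg ε R q
  by_cases hs : q.1 + q.2.1 ∈ Ioo ε (R / 2)
  swap
  · have : smallG ε R q = 0 := by
      unfold smallG psi
      rw [indicator_of_notMem hs, zero_mul, mul_zero]
    rw [this]
    exact bigF_nonneg ε R q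
  obtain ⟨ha1, ha2⟩ := ha
  obtain ⟨hc1, hc2⟩ := hc
  obtain ⟨hs1, hs2⟩ := hs
  have hpos : 0 < q.1 + q.2.1 + q.2.2 := by linarith
  have h0 : (q.1, q.2.1) ∈ setZero R := ⟨⟨ha1, ha2⟩, by simp only; linarith, hs2⟩
  have h1 : (q.2.1, q.2.2) ∈ Icc (0 : ℝ) R ×ˢ Icc (0 : ℝ) ε :=
    ⟨⟨by simp only; linarith, by simp only; linarith⟩, hc1, hc2⟩
  have h2 : (q.2.2, q.1) ∈ Icc (0 : ℝ) ε ×ˢ Icc (-R) 0 :=
    ⟨⟨hc1, hc2⟩, by simp only; linarith, ha2⟩
  have hcond : ε < |q.1 + q.2.1 + q.2.2| ∧ |q.1 + q.2.1 + q.2.2| < R := by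
    rw [abs_of_pos hpos]
    constructor <;> linarith
  unfold smallG psi bigF
  rw [if_pos hcond, indicator_of_mem h0, indicator_of_mem h1, indicator_of_mem h2,
    indicator_of_mem (show q.1 ∈ Icc (-(R / 2)) 0 from ⟨ha1, ha2⟩),
    indicator_of_mem (show q.2.2 ∈ Icc (0 : ℝ) ε from ⟨hc1, hc2⟩),
    indicator_of_mem (show q.1 + q.2.1 ∈ Ioo ε (R / 2) from ⟨hs1, hs2⟩)]
  rw [one_mul, one_mul, one_mul, mul_one, one_div]
  apply inv_anti₀ hpos
  linarith

lemma integrable_boxInd (ε R : ℝ) :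
    Integrable ((box ε R).indicator (fun _ => ε⁻¹)) (volume : Measure (ℝ × ℝ × ℝ)) := by
  have hm : MeasurableSet (box ε R) :=
    measurableSet_Icc.prod (measurableSet_Icc.prod measurableSet_Icc)
  have hfin : volume (box ε R) ≠ ∞ := by
    unfold box
    rw [Measure.volume_eq_prod, Measure.prod_prod, Measure.volume_eq_prod, Measure.prod_prod]
    simp only [Real.volume_Icc]
    exact (ENNReal.mul_lt_top ENNReal.ofReal_lt_top
      (ENNReal.mul_lt_top ENNReal.ofReal_lt_top ENNReal.ofReal_lt_top)).ne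
  rw [integrable_indicator_iff hm]
  exact integrableOn_const hfin enorm_ne_top

lemma integrable_bigF (ε R : ℝ) (hε : 0 < ε) :
    Integrable (bigF ε R) (volume : Measure (ℝ × ℝ × ℝ)) := by
  refine Integrable.mono' (integrable_boxInd ε R) (measurable_bigF ε R).aestronglyMeasurable ?_
  refine Filter.Eventually.of_forall (fun q => ?_)
  rw [Real.norm_eq_abs, abs_of_nonneg (bigF_nonneg ε R q)]
  exact bigF_le ε R hε q

lemma integrable_smallG (ε R : ℝ) (hε : 0 < ε) (hR : 4 * ε ≤ R) :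
    Integrable (smallG ε R) (volume : Measure (ℝ × ℝ × ℝ)) := by
  refine Integrable.mono' (integrable_boxInd ε R) (measurable_smallG ε R).aestronglyMeasurable ?_
  refine Filter.Eventually.of_forall (fun q => ?_)
  rw [Real.norm_eq_abs, abs_of_nonneg (smallG_nonneg ε R hε q)]
  exact (smallG_le_bigF ε R hε hR q).trans (bigF_le ε R hε q)

lemma integral_psi (ε R : ℝ) (hε : 0 < ε) (hR : 4 * ε ≤ R) :
    ∫ s, psi ε R s = Real.log ((R / 2 + ε) / (2 * ε)) := by
  unfold psi
  rw [integral_indicator measurableSet_Ioo, ← integral_Ioc_eq_integral_Ioo,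
    ← intervalIntegral.integral_of_le (by linarith : ε ≤ R / 2)]
  rw [intervalIntegral.integral_comp_add_right (fun x => x⁻¹) ε]
  rw [integral_inv_of_pos (by linarith) (by linarith)]
  congr 1
  ring

lemma integral_smallG (ε R : ℝ) (hε : 0 < ε) (hR : 4 * ε ≤ R) :
    ∫ q, smallG ε R q = R / 2 * (Real.log ((R / 2 + ε) / (2 * ε)) * ε) := by
  rw [Measure.volume_eq_prod, integral_prod _ (by
    rw [← Measure.volume_eq_prod]; exact integrable_smallG ε R hε hR)]
  have hinner : ∀ a : ℝ, ∫ bc : ℝ × ℝ, smallG ε R (a, bc) =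
      (Icc (-(R / 2)) 0).indicator (fun _ => (1 : ℝ)) a *
        (Real.log ((R / 2 + ε) / (2 * ε)) * ε) := by
    intro a
    unfold smallG
    simp only
    rw [integral_const_mul]
    congr 1
    rw [Measure.volume_eq_prod,
      integral_prod_mul (fun b : ℝ => psi ε R (a + b))
        (fun c : ℝ => (Icc (0 : ℝ) ε).indicator (fun _ => (1 : ℝ)) c)]
    rw [integral_add_left_eq_self (fun s => psi ε R s) a, integral_psi ε R hε hR]
    congr 1
    rw [integral_indicator_const _ measurableSet_Icc]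
    simp [hε.le]
  simp_rw [hinner]
  rw [integral_mul_const, integral_indicator_const _ measurableSet_Icc]
  have hR0 : 0 ≤ R / 2 := by linarith
  simp [hR0]

lemma indicator_one_ofReal {α : Type*} (E : Set α) (x : α) :
    ((E.indicator (fun _ => (1 : ℝ)) x : ℝ) : ℂ) = E.indicator (fun _ => (1 : ℂ)) x := by
  by_cases h : x ∈ E
  · rw [indicator_of_mem h, indicator_of_mem h]
    norm_num
  · rw [indicator_of_notMem h, indicator_of_notMem h]
    norm_num

lemma triForm_example (ε R : ℝ) :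
    triForm ε R ((setZero R).indicator (fun _ => (1 : ℂ)))
      ((Icc (0 : ℝ) R ×ˢ Icc (0 : ℝ) ε).indicator (fun _ => (1 : ℂ)))
      ((Icc (0 : ℝ) ε ×ˢ Icc (-R) 0).indicator (fun _ => (1 : ℂ))) =
      ((∫ q, bigF ε R q : ℝ) : ℂ) := by
  unfold triForm
  rw [← integral_complex_ofReal]
  congr 1
  ext q
  unfold bigF
  split_ifs with h
  · push_cast
    rw [indicator_one_ofReal, indicator_one_ofReal, indicator_one_ofReal]
  · norm_num

lemma volume_setZero_ne_top (R : ℝ) : volume (setZero R) ≠ ∞ := by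
  have hsub : setZero R ⊆ Icc (-(R / 2)) 0 ×ˢ Icc (0 : ℝ) R := by
    intro x hx
    obtain ⟨⟨h1, h2⟩, h3, h4⟩ := hx
    exact ⟨⟨h1, h2⟩, by linarith, by linarith⟩
  refine ((measure_mono hsub).trans_lt ?_).ne
  rw [Measure.volume_eq_prod, Measure.prod_prod]
  simp only [Real.volume_Icc]
  exact ENNReal.mul_lt_top ENNReal.ofReal_lt_top ENNReal.ofReal_lt_top

lemma norm_top_le (R : ℝ) :
    (eLpNorm ((setZero R).indicator (fun _ => (1 : ℂ))) ⊤ volume).toReal ≤ 1 := by
  have h := eLpNorm_indicator_const_le (μ := (volume : Measure (ℝ × ℝ))) (s := setZero R)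
    (1 : ℂ) ⊤
  simp only [ENNReal.toReal_top, div_zero, ENNReal.rpow_zero, mul_one, enorm_one] at h
  have := ENNReal.toReal_mono ENNReal.one_ne_top h
  simpa using this

lemma norm_rect_le (v : ℝ) (hv : 0 < v) (E : Set (ℝ × ℝ)) (hE : volume E = ENNReal.ofReal v)
    (r : ℝ≥0∞) :
    (eLpNorm (E.indicator (fun _ => (1 : ℂ))) r volume).toReal ≤ v ^ (1 / r.toReal) := by
  have h := eLpNorm_indicator_const_le (μ := (volume : Measure (ℝ × ℝ))) (s := E)
    (1 : ℂ) r
  rw [hE, enorm_one, one_mul] at h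
  have h2 := ENNReal.toReal_mono
    (ENNReal.rpow_ne_top_of_nonneg (by positivity) ENNReal.ofReal_ne_top) h
  rwa [← ENNReal.toReal_rpow, ENNReal.toReal_ofReal hv.le] at h2

lemma toReal_conj (p p' : ℝ≥0∞) (hpp : 1 / p + 1 / p' = 1) :
    1 / p.toReal + 1 / p'.toReal = 1 := by
  have hp : 1 / p ≠ ⊤ := by
    intro h
    rw [h, top_add] at hpp
    exact ENNReal.top_ne_one hpp
  have hp' : 1 / p' ≠ ⊤ := by
    intro h
    rw [h, add_top] at hpp
    exact ENNReal.top_ne_one hpp
  have := congrArg ENNReal.toReal hpp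
  rw [ENNReal.toReal_add hp hp', ENNReal.toReal_div, ENNReal.toReal_div] at this
  simpa using this


/-- the quantitative failure at the endpoints `(∞, p, p')` -/
lemma fail_zero (p p' : ℝ≥0∞) (hpp : 1 / p + 1 / p' = 1) (ε R C : ℝ) (hε : 0 < ε)
    (hR : 4 * ε ≤ R) (hC : C ≤ 1 / 2 * Real.log (R / (4 * ε))) :
    ¬ ∀ G0 G1 G2 : ℝ × ℝ → ℂ,
      MemLp G0 ⊤ volume → MemLp G1 p volume → MemLp G2 p' volume →
      ‖triForm ε R G0 G1 G2‖ ≤ C * (eLpNorm G0 ⊤ volume).toReal *
        (eLpNorm G1 p volume).toReal * (eLpNorm G2 p' volume).toReal := by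
  intro hb
  have hRpos : 0 < R := by linarith
  have hRε : 0 < R * ε := by positivity
  have hE1 : volume (Icc (0 : ℝ) R ×ˢ Icc (0 : ℝ) ε) = ENNReal.ofReal (R * ε) := by
    rw [Measure.volume_eq_prod, Measure.prod_prod, Real.volume_Icc, Real.volume_Icc,
      ENNReal.ofReal_mul hRpos.le]
    simp
  have hE2 : volume (Icc (0 : ℝ) ε ×ˢ Icc (-R) 0) = ENNReal.ofReal (R * ε) := by
    rw [Measure.volume_eq_prod, Measure.prod_prod, Real.volume_Icc, Real.volume_Icc,
      ENNReal.ofReal_mul hRpos.le, mul_comm]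
    simp
  have hm1 : MeasurableSet (Icc (0 : ℝ) R ×ˢ Icc (0 : ℝ) ε) :=
    measurableSet_Icc.prod measurableSet_Icc
  have hm2 : MeasurableSet (Icc (0 : ℝ) ε ×ˢ Icc (-R) 0) :=
    measurableSet_Icc.prod measurableSet_Icc
  have key := hb ((setZero R).indicator (fun _ => (1 : ℂ)))
    ((Icc (0 : ℝ) R ×ˢ Icc (0 : ℝ) ε).indicator (fun _ => (1 : ℂ)))
    ((Icc (0 : ℝ) ε ×ˢ Icc (-R) 0).indicator (fun _ => (1 : ℂ)))
    (memLp_indicator_const ⊤ (measurableSet_setZero R) 1 (Or.inr (volume_setZero_ne_top R)))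
    (memLp_indicator_const p hm1 1 (Or.inr (by rw [hE1]; exact ENNReal.ofReal_ne_top)))
    (memLp_indicator_const p' hm2 1 (Or.inr (by rw [hE2]; exact ENNReal.ofReal_ne_top)))
  rw [triForm_example, Complex.norm_real, Real.norm_eq_abs] at key
  -- lower bound for the left side
  have hlow : R / 2 * (Real.log ((R / 2 + ε) / (2 * ε)) * ε) ≤ |∫ q, bigF ε R q| := by
    rw [← integral_smallG ε R hε hR]
    refine le_trans ?_ (le_abs_self _)
    exact integral_mono (integrable_smallG ε R hε hR) (integrable_bigF ε R hε)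
      (fun q => smallG_le_bigF ε R hε hR q)
  -- upper bound for the right side
  have h0 := norm_top_le R
  have h1 := norm_rect_le (R * ε) hRε _ hE1 p
  have h2 := norm_rect_le (R * ε) hRε _ hE2 p'
  have hn0 : 0 ≤ (eLpNorm ((setZero R).indicator (fun _ => (1 : ℂ))) ⊤ volume).toReal :=
    ENNReal.toReal_nonneg
  have hn1 : 0 ≤ (eLpNorm ((Icc (0 : ℝ) R ×ˢ Icc (0 : ℝ) ε).indicator (fun _ => (1 : ℂ)))
      p volume).toReal := ENNReal.toReal_nonneg
  have hn2 : 0 ≤ (eLpNorm ((Icc (0 : ℝ) ε ×ˢ Icc (-R) 0).indicator (fun _ => (1 : ℂ)))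
      p' volume).toReal := ENNReal.toReal_nonneg
  have hprod : (R * ε) ^ (1 / p.toReal) * (R * ε) ^ (1 / p'.toReal) = R * ε := by
    rw [← Real.rpow_add hRε, toReal_conj p p' hpp, Real.rpow_one]
  have hL : 0 ≤ 1 / 2 * Real.log (R / (4 * ε)) := by
    have : 1 ≤ R / (4 * ε) := by
      rw [le_div_iff₀ (by positivity)]
      linarith
    have := Real.log_nonneg this
    linarith
  have hup : C * (eLpNorm ((setZero R).indicator (fun _ => (1 : ℂ))) ⊤ volume).toReal *
      (eLpNorm ((Icc (0 : ℝ) R ×ˢ Icc (0 : ℝ) ε).indicator (fun _ => (1 : ℂ))) p volume).toReal *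
      (eLpNorm ((Icc (0 : ℝ) ε ×ˢ Icc (-R) 0).indicator (fun _ => (1 : ℂ))) p'
        volume).toReal ≤ 1 / 2 * Real.log (R / (4 * ε)) * (R * ε) := by
    calc _ ≤ 1 / 2 * Real.log (R / (4 * ε)) *
          (eLpNorm ((setZero R).indicator (fun _ => (1 : ℂ))) ⊤ volume).toReal *
          (eLpNorm ((Icc (0 : ℝ) R ×ˢ Icc (0 : ℝ) ε).indicator (fun _ => (1 : ℂ)))
            p volume).toReal *
          (eLpNorm ((Icc (0 : ℝ) ε ×ˢ Icc (-R) 0).indicator (fun _ => (1 : ℂ))) p'
            volume).toReal := by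
          gcongr
      _ ≤ 1 / 2 * Real.log (R / (4 * ε)) * 1 * (R * ε) ^ (1 / p.toReal) *
          (R * ε) ^ (1 / p'.toReal) := by
          gcongr
      _ = 1 / 2 * Real.log (R / (4 * ε)) * (R * ε) := by
          rw [mul_one, mul_assoc, hprod]
  have hstrict : Real.log (R / (4 * ε)) < Real.log ((R / 2 + ε) / (2 * ε)) := by
    apply Real.log_lt_log (by positivity)
    rw [div_lt_div_iff₀ (by positivity) (by positivity)]
    nlinarith
  have hfin : R / 2 * (Real.log ((R / 2 + ε) / (2 * ε)) * ε) ≤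
      1 / 2 * Real.log (R / (4 * ε)) * (R * ε) := hlow.trans (key.trans hup)
  have : 1 / 2 * Real.log (R / (4 * ε)) * (R * ε) <
      R / 2 * (Real.log ((R / 2 + ε) / (2 * ε)) * ε) := by
    have h3 : R / 2 * (Real.log ((R / 2 + ε) / (2 * ε)) * ε) =
        1 / 2 * Real.log ((R / 2 + ε) / (2 * ε)) * (R * ε) := by ring
    rw [h3]
    apply mul_lt_mul_of_pos_right _ hRε
    linarith
  linarith

/-- cyclic symmetry of the form -/
lemma triForm_cyclic (ε R : ℝ) (G0 G1 G2 : ℝ × ℝ → ℂ) :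
    triForm ε R G0 G1 G2 = triForm ε R G2 G0 G1 := by
  unfold triForm
  have hmp : MeasurePreserving (fun q : ℝ × ℝ × ℝ => (q.2.1, q.2.2, q.1)) volume volume := by
    have h1 : MeasurePreserving (Prod.swap : ℝ × (ℝ × ℝ) → (ℝ × ℝ) × ℝ) volume volume :=
      Measure.measurePreserving_swap
    have h2 := volume_preserving_prodAssoc (α₁ := ℝ) (β₁ := ℝ) (γ₁ := ℝ)
    exact h2.comp h1
  have hemb : MeasurableEmbedding (fun q : ℝ × ℝ × ℝ => (q.2.1, q.2.2, q.1)) :=
    (MeasurableEquiv.prodComm.trans MeasurableEquiv.prodAssoc).measurableEmbedding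
  rw [← hmp.integral_comp hemb]
  congr 1
  ext q
  have hs : q.2.1 + q.2.2 + q.1 = q.1 + q.2.1 + q.2.2 := by ring
  simp only
  rw [hs]
  split_ifs
  · ring
  · rfl

/-- Let `(p0, p1, p2)` be a point of the Hoelder line `1/p0 + 1/p1 + 1/p2 = 1` (extended
exponents, so each `p_v` lies in `[1, ∞]`) with an infinite coordinate, and let `0 < 4 ε ≤ R`.
Then every constant `C` with `|Λ_{ε,R}(G0, G1, G2)| ≤ C ‖G0‖_{p0} ‖G1‖_{p1} ‖G2‖_{p2}` for all
`G_v ∈ L^{p_v}` on the plane satisfies `C > (1/2) log (R / (4 ε))`. -/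
theorem result (p0 p1 p2 : ℝ≥0∞) (hH : 1 / p0 + 1 / p1 + 1 / p2 = 1)
    (htop : p0 = ⊤ ∨ p1 = ⊤ ∨ p2 = ⊤) (ε R C : ℝ) (hε : 0 < ε) (hR : 4 * ε ≤ R)
    (hC : ∀ G0 G1 G2 : ℝ × ℝ → ℂ,
      MemLp G0 p0 volume → MemLp G1 p1 volume → MemLp G2 p2 volume →
      ‖triForm ε R G0 G1 G2‖ ≤ C * (eLpNorm G0 p0 volume).toReal *
        (eLpNorm G1 p1 volume).toReal * (eLpNorm G2 p2 volume).toReal) :
    1 / 2 * Real.log (R / (4 * ε)) < C := by
  by_contra hcon
  rw [not_lt] at hcon
  rcases htop with h | h | h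
  · subst h
    have hpp : 1 / p1 + 1 / p2 = 1 := by simpa using hH
    exact fail_zero p1 p2 hpp ε R C hε hR hcon hC
  · subst h
    have hpp : 1 / p2 + 1 / p0 = 1 := by
      rw [add_comm]
      simpa using hH
    apply fail_zero p2 p0 hpp ε R C hε hR hcon
    intro H0 H1 H2 m0 m1 m2
    have := hC H2 H0 H1 m2 m0 m1
    rw [triForm_cyclic ε R H0 H1 H2]
    calc _ ≤ _ := this
      _ = _ := by ring
  · subst h
    have hpp : 1 / p0 + 1 / p1 = 1 := by simpa using hH
    apply fail_zero p0 p1 hpp ε R C hε hR hcon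
    intro H0 H1 H2 m0 m1 m2
    have := hC H1 H2 H0 m1 m2 m0
    rw [triForm_cyclic ε R H0 H1 H2, triForm_cyclic ε R H2 H0 H1]
    calc _ ≤ _ := this
      _ = _ := by ring

end Vale.Agent.Results.P075.A_EndpointFailure
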